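import Vale.Agent.P245.H638.Scale
import Vale.Agent.P245.N.Fin

/-! # P245: improved Lichnerowicz estimate for the log-Sobolev constant, final statement -/

open MeasureTheory Real Set Filter Topology
open scoped ENNReal ContDiff

namespace Vale.Agent.P245

/-- `μ` is `t`-strongly log-concave: it has a density `ρ` with respect to Lebesgue measure such
that `{ρ > 0}` is convex and `log ρ + t |x|² / 2` is concave on it. -/
def StronglyLogConcave {n : ℕ} (μ : Measure (EuclideanSpace ℝ (Fin n))) (t : ℝ) : Prop :=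
  ∃ ρ : EuclideanSpace ℝ (Fin n) → ℝ, Measurable ρ ∧ (∀ x, 0 ≤ ρ x) ∧
    ConcaveOn ℝ {x | 0 < ρ x} (fun x => Real.log (ρ x) + t / 2 * ‖x‖ ^ 2) ∧
    μ = (volume : Measure (EuclideanSpace ℝ (Fin n))).withDensity
      (fun x => ENNReal.ofReal (ρ x))

end Vale.Agent.P245

namespace Vale.Agent.P245.H638

open LS E1

variable {n : ℕ} {ρ : (Fin n → ℝ) → ℝ} {R t : ℝ}

theorem trunc_gwt (t : ℝ) (ρ : (Fin n → ℝ) → ℝ) (L m : ℝ) :
    trunc (gwt t ρ) L m = gwt t (trunc ρ L m) := by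
  funext x
  unfold trunc
  by_cases hx : x ∈ cube n L
  · rw [indicator_of_mem hx]
    unfold gwt
    rw [indicator_of_mem hx]
    ring
  · rw [indicator_of_notMem hx]
    unfold gwt
    rw [indicator_of_notMem hx, zero_mul]

/-- all strongly log-concave laws -/
theorem dl_slc_mu (hn : 1 ≤ n) (ht : 0 < t) (hρ : LCd ρ)
    (hprob : IsProbabilityMeasure (mu (gwt t ρ)))
    (hexp : ∀ h : Fin n → ℝ, ∫⁻ x, ENNReal.ofReal (exp (∑ i, h i * x i)) ∂(mu (gwt t ρ))
        ≤ 2 * ENNReal.ofReal (exp ((∑ i, h i ^ 2) / 4))) :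
    DL (mu (gwt t ρ)) (8 * 10 ^ 17 * (1 + 1 / √t)) 0 := by
  have hρt := gwt_LCd ht.le hρ
  have hev : ∀ᶠ k : ℕ in atTop, 2 / 3 < (mu (gwt t ρ)).real (cube n k) :=
    (tendsto_real_cube (ρ := gwt t ρ)).eventually (lt_mem_nhds (by norm_num))
  apply N.dl_of_trunc_D hρt
  filter_upwards [hev] with j hj
  have hk0 : 0 < (mu (gwt t ρ)).real (cube n (j : ℝ)) := by linarith only [hj]
  have h1 := isProb_muT hρt hk0
  have h2 := csupp_muT hρt (Nat.cast_nonneg j) hk0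
  have h3 := expM_muT hρt (Nat.cast_nonneg j) hj.le hexp
  unfold muT at h1 h2 h3 ⊢
  rw [trunc_gwt] at h1 h2 h3 ⊢
  exact dl_slc hn ht (trunc_LCd hρ hk0) h1 h2 h3

/-- the normalised image on `Fin n → ℝ` of a strongly log-concave measure -/
theorem exists_slc {μ : Measure (EuclideanSpace ℝ (Fin n))} [IsProbabilityMeasure μ]
    (hlc : StronglyLogConcave μ t) {a : ℝ} (ha : 0 < a) :
    ∃ ρ : (Fin n → ℝ) → ℝ, LCd ρ ∧ IsProbabilityMeasure (mu (gwt (t * a ^ 2) ρ)) ∧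
      μ.map (scE n a ha.ne') = mu (gwt (t * a ^ 2) ρ) := by
  obtain ⟨ρ, hm, h0, hc, hμ⟩ := hlc
  set e := (MeasurableEquiv.toLp 2 (Fin n → ℝ)).symm with he
  have hmp : MeasurePreserving e volume volume :=
    EuclideanSpace.volume_preserving_symm_measurableEquiv_toLp (Fin n)
  set ρ0 : (Fin n → ℝ) → ℝ := fun y => ρ (WithLp.toLp 2 y) with hρ0
  have hρ0m : Measurable ρ0 := hm.comp (WithLp.measurable_toLp 2 _)
  have hmap : μ.map e = mu ρ0 := by
    ext A hA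
    rw [Measure.map_apply e.measurable hA, hμ, mu, withDensity_apply _ (e.measurable hA),
      withDensity_apply _ hA]
    have := hmp.setLIntegral_comp_preimage hA (f := fun y => ENNReal.ofReal (ρ0 y))
      hρ0m.ennreal_ofReal
    rw [← this]
    rfl
  -- the log-concave factor
  obtain ⟨g, hg⟩ : ∃ g : EuclideanSpace ℝ (Fin n) → ℝ,
      g = fun x => ρ x * exp (t / 2 * ‖x‖ ^ 2) := ⟨_, rfl⟩
  have hgm : Measurable g := by
    rw [hg]; exact hm.mul (by fun_prop)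
  have hg0 : ∀ x, 0 ≤ g x := fun x => by
    rw [hg]; exact mul_nonneg (h0 x) (exp_pos _).le
  have hset : {x | 0 < g x} = {x | 0 < ρ x} := by
    ext x
    simp only [Set.mem_setOf_eq, hg]
    exact ⟨fun h => pos_of_mul_pos_left h (exp_pos _).le, fun h => mul_pos h (exp_pos _)⟩
  have hgc : ConcaveOn ℝ {x | 0 < g x} (fun x => log (g x)) := by
    rw [hset]
    refine hc.congr fun x hx => ?_
    simp only [Set.mem_setOf_eq] at hx
    rw [hg]
    show log (ρ x) + t / 2 * ‖x‖ ^ 2 = log (ρ x * exp (t / 2 * ‖x‖ ^ 2))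
    rw [log_mul hx.ne' (exp_pos _).ne', log_exp]
  have hLC := LCd_scale (n := n) (ρ := fun y => g (WithLp.toLp 2 y))
    (hgm.comp (WithLp.measurable_toLp 2 _)) (fun x => hg0 _) (LC_of_concaveOn hg0 hgc) ha
  have hform : (fun y : Fin n → ℝ => a ^ n * ρ0 (a • y))
      = gwt (t * a ^ 2) (fun y => a ^ n * g (WithLp.toLp 2 (a • y))) := by
    funext y
    unfold gwt
    rw [hg, hρ0]
    simp only
    have e1 : ‖WithLp.toLp 2 (a • y)‖ ^ 2 = a ^ 2 * ∑ i, y i ^ 2 := by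
      rw [EuclideanSpace.real_norm_sq_eq, Finset.mul_sum]
      apply Finset.sum_congr rfl
      intro i _
      simp only [Pi.smul_apply, smul_eq_mul]
      ring
    rw [e1]
    have e2 : exp (t / 2 * (a ^ 2 * ∑ i, y i ^ 2)) * exp (-(t * a ^ 2 / 2 * ∑ i, y i ^ 2)) = 1 := by
      rw [← exp_add]
      have : t / 2 * (a ^ 2 * ∑ i, y i ^ 2) + -(t * a ^ 2 / 2 * ∑ i, y i ^ 2) = 0 := by ring
      rw [this, exp_zero]
    have e3 : a ^ n * (ρ (WithLp.toLp 2 (a • y)) * exp (t / 2 * (a ^ 2 * ∑ i, y i ^ 2)))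
          * exp (-(t * a ^ 2 / 2 * ∑ i, y i ^ 2))
        = a ^ n * ρ (WithLp.toLp 2 (a • y)) * (exp (t / 2 * (a ^ 2 * ∑ i, y i ^ 2))
          * exp (-(t * a ^ 2 / 2 * ∑ i, y i ^ 2))) := by ring
    rw [e3, e2, mul_one]
  have hmap2 : μ.map (scE n a ha.ne') = mu (fun y => a ^ n * ρ0 (a • y)) := by
    rw [← map_smul_mu hρ0m ha, ← hmap, Measure.map_map (measurable_const_smul _) e.measurable]
    rfl
  rw [hform] at hmap2
  have hprob : IsProbabilityMeasure (μ.map (scE n a ha.ne')) :=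
    Measure.isProbabilityMeasure_map (scE n a ha.ne').measurable.aemeasurable
  exact ⟨_, hLC, hmap2 ▸ hprob, hmap2⟩

/-- **Improved Lichnerowicz estimate for the log-Sobolev constant.** -/
theorem lichnerowicz : ∃ C : ℝ, 0 < C ∧ ∀ (n : ℕ), 1 ≤ n →
    ∀ (μ : Measure (EuclideanSpace ℝ (Fin n))) [IsProbabilityMeasure μ],
    ∀ t : ℝ, 0 < t → StronglyLogConcave μ t → ∀ a : ℝ, 0 < a → LinearlySubgaussian μ a →
    ∀ f : EuclideanSpace ℝ (Fin n) → ℝ, ContDiff ℝ ∞ f → HasCompactSupport f →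
      Entropy μ (fun x => f x ^ 2) ≤
        C * (a ^ 2 + a / √t) * ∫ x, ‖gradient f x‖ ^ 2 ∂μ := by
  refine ⟨8 * 10 ^ 17, by norm_num, ?_⟩
  intro n hn μ _ t ht hlc a ha hsub f hf hs
  obtain ⟨ρ, hρ, hprob, hmap⟩ := exists_slc hlc ha
  have hexp : ∀ h : Fin n → ℝ, ∫⁻ x, ENNReal.ofReal (Real.exp (∑ i, h i * x i))
      ∂(mu (gwt (t * a ^ 2) ρ)) ≤ 2 * ENNReal.ofReal (Real.exp ((∑ i, h i ^ 2) / 4)) := by
    intro h
    rw [← hmap]
    exact exp_moment_scE ha hsub h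
  have key := N.dl_transfer ha hmap (dl_slc_mu hn (by positivity) hρ hprob hexp) hf hs
  rw [zero_mul, add_zero] at key
  refine key.trans (le_of_eq ?_)
  have hst : 0 < √t := Real.sqrt_pos.2 ht
  have e : √(t * a ^ 2) = √t * a := by
    rw [Real.sqrt_mul ht.le, Real.sqrt_sq ha.le]
  rw [e]
  have e2 : 8 * 10 ^ 17 * (1 + 1 / (√t * a)) * a ^ 2 = 8 * 10 ^ 17 * (a ^ 2 + a / √t) := by
    field_simp
  rw [e2]

end Vale.Agent.P245.H638
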