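import Vale.Agent.P245.Bdl.B2

/-! # P245: the module Path with the curvature term kept -/

open MeasureTheory Real Set Filter Topology
open scoped ENNReal ContDiff

namespace Vale.Agent.P245.H638

open LS E1

/-- module Path, keeping the term `D²V` -/
theorem pathB (n : ℕ) {ρ0 : (Fin n → ℝ) → ℝ} {R : ℝ} (hρ : LCd ρ0)
    (hprob : IsProbabilityMeasure (mu ρ0)) (hcs : CSupp (mu ρ0) R)
    {N : (Fin n → ℝ) → ℝ} {δ κ σ α x X D : ℝ} (hδ : 0 < δ) (hδκ : 2000 * δ ≤ κ)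
    (hDBS : DBS (mu ρ0) (2 * δ) δ κ D) (hσ : σ ∈ Icc (2 * δ) (3 * δ)) (hN : Pos N)
    (hN1 : EY (mu ρ0) σ N = 1) (hα : 0 ≤ α) (hαJ : 10 ^ 4 * α ≤ κ * FI (mu ρ0) σ N)
    (hnear : D - α ≤ HE (mu ρ0) σ N - κ * FI (mu ρ0) σ N)
    (hx : 2 * δ * FI (mu ρ0) σ N ≤ x) (hX0 : 0 ≤ X) (hXJ : X ≤ FI (mu ρ0) σ N)
    (hPred : Pred (mu ρ0) σ N (sN N) x X) :
    ∃ (ρ : ℝ) (M : (Fin n → ℝ) → ℝ), ρ ∈ Icc (2 * δ) (3 * δ) ∧ Pos M ∧ EY (mu ρ0) ρ M = 1 ∧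
        D - (10 * α + 8 * δ * X) ≤ HE (mu ρ0) ρ M - κ * FI (mu ρ0) ρ M ∧
        9 / 10 * FI (mu ρ0) σ N ≤ FI (mu ρ0) ρ M ∧ FI (mu ρ0) ρ M ≤ FI (mu ρ0) σ N ∧
        κ * (GA (mu ρ0) ρ M + 2 * BI (mu ρ0) ρ M (sN M) (sN M))
          ≤ 1 / 2 * FI (mu ρ0) ρ M + (10 * α + 8 * δ * X) / δ ∧
        Pred (mu ρ0) ρ M (sN M) x (2 * X + 2 * (10 * α + 8 * δ * X) / κ) := by
  have hPA := thPathA' n
  have hR := thR' n
  have hCo := thCo n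
  have hU := thU' n
  obtain ⟨⟨hVpos, hV1, -⟩, -, hup⟩ := hPA ρ0 R hρ hprob hcs N (PH (σ - 2 * δ) N) δ κ σ α x X D
    hδ hδκ hDBS hσ hN hN1 hα hαJ hnear hx hX0 hXJ hPred rfl
  set V : (Fin n → ℝ) → ℝ := PH (σ - 2 * δ) N with hV
  set M : ℝ := 10 * α + 8 * δ * X with hM
  have hs0 : 0 < 2 * δ := by linarith only [hδ]
  have hsr : (2 : ℝ) * δ ≤ 3 * δ := by linarith only [hδ]
  have hκ : 0 < κ := by linarith only [hδ, hδκ]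
  have hss : 2 * δ ∈ Icc (2 * δ) (3 * δ) := ⟨le_rfl, hsr⟩
  have hrr : 3 * δ ∈ Icc (2 * δ) (3 * δ) := ⟨hsr, le_rfl⟩
  obtain ⟨cH, cJ, dH, dJ, -⟩ := hU (mu ρ0) R hcs V (2 * δ) (3 * δ) hVpos hs0 hsr
  obtain ⟨-, -, hRb⟩ := hR (mu ρ0) R hcs
  have hsb : ∀ v ∈ Icc (2 * δ) (3 * δ), ∀ i, SB (us (mu ρ0) (2 * δ) v V i) ∧
      SB (mm (mu ρ0) (2 * δ) v V i) ∧ SB (sN (UL (mu ρ0) (2 * δ) v V) i) := by
    intro v hv i
    obtain ⟨hUpos, h1, -⟩ := (hRb (2 * δ) v hs0 hv.1).2 V hVpos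
    have hv0 : 0 < v := hs0.trans_le hv.1
    exact ⟨(h1 i).2.1, (h1 i).2.2.1, (((hRb v v hv0 le_rfl).2 _ hUpos).2.1 i).1⟩
  obtain ⟨v, hv, hvd⟩ := exists_deriv_ge (M := M) (δ := δ) (a := 2 * δ) (b := 3 * δ)
    (α := fun ρ => D - LS.HE (mu ρ0) ρ (UL (mu ρ0) (2 * δ) ρ V)
      + κ * LS.FI (mu ρ0) ρ (UL (mu ρ0) (2 * δ) ρ V)) hδ (by ring)
    ((continuousOn_const.sub cH).add (continuousOn_const.mul cJ))
    (fun v hv => ((dH v hv).const_sub D).add ((dJ v hv).const_mul κ))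
    (by
      have h1 := (hup (3 * δ) hrr).2.2.1
      show 0 ≤ D - LS.HE (mu ρ0) (3 * δ) (UL (mu ρ0) (2 * δ) (3 * δ) V)
        + κ * LS.FI (mu ρ0) (3 * δ) (UL (mu ρ0) (2 * δ) (3 * δ) V)
      linarith only [h1])
    (by
      have h1 := (hup (2 * δ) hss).2.2.2.1
      show D - LS.HE (mu ρ0) (2 * δ) (UL (mu ρ0) (2 * δ) (2 * δ) V)
        + κ * LS.FI (mu ρ0) (2 * δ) (UL (mu ρ0) (2 * δ) (2 * δ) V) ≤ M
      linarith only [h1])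
  have hvI : v ∈ Icc (2 * δ) (3 * δ) := ⟨hv.1.le, hv.2.le⟩
  obtain ⟨hUpos, hUE, hHD, hHM, hFle, hFge, hmm, hPu⟩ := hup v hvI
  have hJ0 : 0 ≤ LS.FI (mu ρ0) σ N := hX0.trans hXJ
  refine ⟨v, UL (mu ρ0) (2 * δ) v V, hvI, hUpos, hUE, hHM, by linarith only [hX0, hXJ, hFge], hFle,
    ?_, ?_⟩
  · linarith only [hvd]
  · intro l hl hI
    obtain ⟨-, hc⟩ := (hCo (mu ρ0) v _ hUpos).2.2 hUE l hl
    have h1 := (hc (us (mu ρ0) (2 * δ) v V) fun i => (hsb v hvI i).1).2.2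
      (mm (mu ρ0) (2 * δ) v V) (fun i => (hsb v hvI i).2.1) 1 (-1)
    have h3 := (hc (mm (mu ρ0) (2 * δ) v V) fun i => (hsb v hvI i).2.1).2.1
    have h4 := hPu l hl hI
    have e1 : (fun i y => 1 * us (mu ρ0) (2 * δ) v V i y + -1 * mm (mu ρ0) (2 * δ) v V i y)
        = sN (UL (mu ρ0) (2 * δ) v V) := by
      funext i y
      unfold mm
      ring
    rw [e1] at h1
    have e2 : 2 * M / κ = 2 * (M / κ) := by ring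
    rw [e2]
    linarith only [hmm, h1, h3, h4]

/-- lower bound of the second order quantity at a near-maximiser whose score is unpredictable -/
theorem ga_lower (n : ℕ) (μ : Measure (Fin n → ℝ)) [IsProbabilityMeasure μ] {M : (Fin n → ℝ) → ℝ}
    {ρ κ β x X D : ℝ} (hρ : 0 ≤ ρ) (hκ : 0 < κ) (hM : Pos M) (hM1 : EY μ ρ M = 1)
    (hdef : D - β ≤ HE μ ρ M - κ * FI μ ρ M) (hx : κ * FI μ ρ M ≤ x)
    (hPred : Pred μ ρ M (sN M) x X) (hDB : DBL μ ρ κ D) :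
    κ * (FI μ ρ M - X) ≤ β + κ * (2 * (κ * GA μ ρ M)) := by
  have hsb : ∀ i, SB (sN M i) := fun i => hM.div (hM.sb.pd i)
  obtain ⟨⟨eFI, eGA⟩, hIP, hch⟩ := thCo n μ ρ M hM
  obtain ⟨hCh, hup, hlow, hrev⟩ := thRv n μ ρ (2 * κ) κ D M (sN M) hρ (by positivity) hM hM1 hsb
  have hrev := hrev hDB
  rw [← eFI] at hup hlow
  rw [← eGA] at hrev
  have e : 2 * κ / 2 = κ := by ring
  rw [e] at hup hlow
  have hCo1 : Co μ ρ M (sN M) (RL (2 * κ) (sN M)) ≤ X := hPred _ hCh (hup.trans hx)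
  have h1 : κ * (FI μ ρ M - X) ≤ Inf μ ρ M (RL (2 * κ) (sN M)) :=
    (mul_le_mul_of_nonneg_left (by linarith only [hCo1]) hκ.le).trans hlow
  linarith only [hdef, hrev, h1]

end Vale.Agent.P245.H638
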