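import Vale.Agent.P245.H638.Slc
import Vale.Agent.P245.H638.PathB

/-! # P245: near-maximisers of a law with `D²V_r ≥ b` have small energy when `b κ² ≥ C` -/

open MeasureTheory Real Set Filter Topology
open scoped ENNReal ContDiff

namespace Vale.Agent.P245.H638

open LS E1

theorem key_num {κ δ b F FM G B Q α A0 : ℝ} (hκ : 10 ^ 15 ≤ κ) (hδ1 : κ / 4000 ≤ δ)
    (hδ2 : 2000 * δ ≤ κ) (hb0 : 0 ≤ b) (hb : 10 ^ 16 ≤ b * κ ^ 2) (hF : 0 ≤ F) (hQ : 0 ≤ Q)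
    (hα : 0 ≤ α) (hA : A0 = 400 / δ ^ 2 * Q + 2000 * α / κ) (m2 : 9 / 10 * F ≤ FM)
    (hB : b * FM ≤ B)
    (m4 : κ * (G + 2 * B) ≤ 1 / 2 * FM + (10 * α + 8 * δ * (2 * A0)) / δ)
    (m6 : κ * (FM - (2 * (2 * A0) + 2 * (10 * α + 8 * δ * (2 * A0)) / κ))
      ≤ (10 * α + 8 * δ * (2 * A0)) + κ * (2 * (κ * G))) :
    κ * F ≤ 1 / 10 ^ 4 * Q + (10 ^ 4 + κ) * α := by
  have hκ0 : 0 < κ := lt_of_lt_of_le (by norm_num) hκ
  have hδ0 : 0 < δ := lt_of_lt_of_le (by positivity) hδ1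
  have hA0 : 0 ≤ A0 := by rw [hA]; positivity
  have a1 : κ * (κ * A0) ≤ 6400000000 * Q + 2000 * (κ * α) := by
    have h2 : 400 / δ ^ 2 ≤ 6400000000 / κ ^ 2 := by
      rw [div_le_div_iff₀ (by positivity) (by positivity)]
      have h3 : κ ≤ 4000 * δ := by linarith only [hδ1]
      have h4 : κ ^ 2 ≤ (4000 * δ) ^ 2 := pow_le_pow_left₀ hκ0.le h3 2
      linarith only [h4]
    have h3 : 400 / δ ^ 2 * Q ≤ 6400000000 / κ ^ 2 * Q := mul_le_mul_of_nonneg_right h2 hQ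
    have h4 : κ * (κ * (400 / δ ^ 2 * Q)) ≤ κ * (κ * (6400000000 / κ ^ 2 * Q)) :=
      mul_le_mul_of_nonneg_left (mul_le_mul_of_nonneg_left h3 hκ0.le) hκ0.le
    have e1 : κ * (κ * (6400000000 / κ ^ 2 * Q)) = 6400000000 * Q := by
      field_simp
    have e2 : κ * (κ * A0) = κ * (κ * (400 / δ ^ 2 * Q)) + 2000 * (κ * α) := by
      rw [hA]; field_simp
    rw [e2]
    linarith only [h4, e1]
  obtain ⟨β, hβ⟩ : ∃ β, β = 10 * α + 8 * δ * (2 * A0) := ⟨_, rfl⟩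
  rw [← hβ] at m4 m6
  have hβ0 : 0 ≤ β := by rw [hβ]; positivity
  have a2 : κ * (β / δ) ≤ 4000 * β := by
    have e : κ * (β / δ) = β * (κ / δ) := by ring
    have h3 : κ / δ ≤ 4000 := by
      rw [div_le_iff₀ hδ0]; linarith only [hδ1]
    rw [e]
    have := mul_le_mul_of_nonneg_left h3 hβ0
    linarith only [this]
  have a3 : β ≤ 10 * α + 8 / 1000 * (κ * A0) := by
    have h3 : 16 * δ * A0 ≤ 16 / 2000 * κ * A0 :=
      mul_le_mul_of_nonneg_right (by linarith only [hδ2]) hA0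
    rw [hβ]
    linarith only [h3]
  have a4 : κ * (2 * β / κ) = 2 * β := by field_simp
  have m4' := mul_le_mul_of_nonneg_left m4 (show 0 ≤ 2 * κ by positivity)
  have e4 : 2 * κ * (κ * (G + 2 * B)) = κ * (2 * (κ * G)) + 4 * (κ * (κ * B)) := by ring
  have e5 : 2 * κ * (1 / 2 * FM + β / δ) = κ * FM + 2 * (κ * (β / δ)) := by ring
  have e6 : κ * (FM - (2 * (2 * A0) + 2 * β / κ)) = κ * FM - 4 * (κ * A0) - κ * (2 * β / κ) := by
    ring
  rw [e4, e5] at m4'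
  rw [e6, a4] at m6
  have a5 : 4 * (κ * (κ * B)) ≤ 4 * (κ * A0) + 8003 * β := by linarith only [m4', m6, a2]
  have a6 : 36 / 10 * (b * κ ^ 2 * F) ≤ 4 * (κ * (κ * B)) := by
    have h1 : b * (9 / 10 * F) ≤ B := (mul_le_mul_of_nonneg_left m2 hb0).trans hB
    have h2 : κ * (κ * (b * (9 / 10 * F))) ≤ κ * (κ * B) :=
      mul_le_mul_of_nonneg_left (mul_le_mul_of_nonneg_left h1 hκ0.le) hκ0.le
    have e : κ * (κ * (b * (9 / 10 * F))) = 9 / 10 * (b * κ ^ 2 * F) := by ring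
    rw [e] at h2
    linarith only [h2]
  have a7 : 36 / 10 * (b * κ ^ 2 * F) ≤ 69 * (κ * A0) + 80030 * α := by
    have hκA : 0 ≤ κ * A0 := by positivity
    linarith only [a5, a6, a3, hκA]
  have a8 := mul_le_mul_of_nonneg_left a7 hκ0.le
  have e8 : κ * (36 / 10 * (b * κ ^ 2 * F)) = 36 / 10 * ((b * κ ^ 2) * (κ * F)) := by ring
  have e9 : κ * (69 * (κ * A0) + 80030 * α) = 69 * (κ * (κ * A0)) + 80030 * (κ * α) := by ring
  rw [e8, e9] at a8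
  have hκF : 0 ≤ κ * F := by positivity
  have hκα : 0 ≤ κ * α := by positivity
  have a9 : 10 ^ 16 * (κ * F) ≤ (b * κ ^ 2) * (κ * F) := mul_le_mul_of_nonneg_right hb hκF
  have e10 : (10 ^ 4 + κ) * α = 10 ^ 4 * α + κ * α := by ring
  rw [e10]
  linarith only [a8, a9, a1, hκα, hα, hQ]

/-- a near-maximiser has small energy -/
theorem key (n : ℕ) {ρ0 : (Fin n → ℝ) → ℝ} {R : ℝ} (hρ : LCd ρ0)
    (hprob : IsProbabilityMeasure (mu ρ0)) (hcs : CSupp (mu ρ0) R) (hexp : ExpM (mu ρ0) 3)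
    {N : (Fin n → ℝ) → ℝ} {δ κ σ α D b : ℝ} (hκ : 10 ^ 15 ≤ κ) (hδ1 : κ / 4000 ≤ δ)
    (hδ2 : 2000 * δ ≤ κ) (hb0 : 0 ≤ b) (hb : 10 ^ 16 ≤ b * κ ^ 2)
    (hBI : ∀ ρ ∈ Icc (2 * δ) (3 * δ), ∀ M : (Fin n → ℝ) → ℝ, Pos M →
      b * FI (mu ρ0) ρ M ≤ BI (mu ρ0) ρ M (sN M) (sN M))
    (hDBS : DBS (mu ρ0) (2 * δ) δ κ D) (hσ : σ ∈ Icc (2 * δ) (3 * δ)) (hN : Pos N)
    (hN1 : EY (mu ρ0) σ N = 1) (hα0 : 0 ≤ α) (hα1 : α ≤ 1) (hD0 : 0 ≤ D)
    (hnear : D - α ≤ HE (mu ρ0) σ N - κ * FI (mu ρ0) σ N) :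
    κ * FI (mu ρ0) σ N ≤ 1 / 5000 * (D + log 3) + 2 * ((10 ^ 4 + κ) * α) := by
  have := hprob
  have hκ0 : 0 < κ := lt_of_lt_of_le (by norm_num) hκ
  have hδ0 : 0 < δ := lt_of_lt_of_le (by positivity) hδ1
  have hF0 : 0 ≤ FI (mu ρ0) σ N := g_FI_nonneg _ _ hN
  have hH := hDBS σ ⟨hσ.1, by linarith only [hσ.2]⟩ N hN hN1
  obtain ⟨F, hF⟩ : ∃ F, F = FI (mu ρ0) σ N := ⟨_, rfl⟩
  obtain ⟨H, hHdef⟩ : ∃ H, H = HE (mu ρ0) σ N := ⟨_, rfl⟩
  have hlog3 : 1 ≤ log 3 := by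
    rw [Real.le_log_iff_exp_le (by norm_num)]
    have := Real.exp_one_lt_d9
    linarith only [this]
  have hκF0 : 0 ≤ κ * F := mul_nonneg hκ0.le (by rw [hF]; exact hF0)
  have hκα : 0 ≤ κ * α := by positivity
  rw [← hF, ← hHdef] at hH
  have hnear' := hnear
  rw [← hF, ← hHdef] at hnear'
  have hQ0 : 0 ≤ H + κ * F + log 3 := by linarith only [hnear', hD0, hα1, hκF0, hlog3]
  have claim : κ * F ≤ 1 / 10 ^ 4 * (H + κ * F + log 3) + (10 ^ 4 + κ) * α := by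
    have e10 : (10 ^ 4 + κ) * α = 10 ^ 4 * α + κ * α := by ring
    by_cases h1 : 10 ^ 4 * α ≤ κ * F
    swap
    · rw [e10]
      have : 0 ≤ 1 / 10 ^ 4 * (H + κ * F + log 3) := by positivity
      linarith only [h1, not_le.1 h1, this, hκα]
    obtain ⟨A0, hA0⟩ : ∃ A0, A0 = 400 / δ ^ 2 * (H + κ * F + log 3) + 2000 * α / κ := ⟨_, rfl⟩
    have hA0pos : 0 ≤ A0 := by rw [hA0]; positivity
    by_cases h2 : 2 * A0 ≤ F
    swap
    · have h3 : κ * F ≤ κ * (2 * A0) := mul_le_mul_of_nonneg_left (not_le.1 h2).le hκ0.le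
      have h5 : κ * (400 / δ ^ 2 * (H + κ * F + log 3))
          ≤ 1 / 10 ^ 5 * (H + κ * F + log 3) := by
        have h4 : κ * (400 / δ ^ 2) ≤ 1 / 10 ^ 5 := by
          have e : κ * (400 / δ ^ 2) = 400 * κ / δ ^ 2 := by ring
          rw [e, div_le_iff₀ (by positivity)]
          have h6 : κ ≤ 4000 * δ := by linarith only [hδ1]
          have h7 : κ * κ ≤ (4000 * δ) * (4000 * δ) := mul_self_le_mul_self hκ0.le h6
          have h8 : 10 ^ 15 * κ ≤ κ * κ := mul_le_mul_of_nonneg_right hκ hκ0.le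
          have h9 : 0 ≤ δ ^ 2 := sq_nonneg δ
          linarith only [h7, h8, h9]
        have := mul_le_mul_of_nonneg_right h4 hQ0
        linarith only [this]
      have e : κ * (2 * A0) = 2 * (κ * (400 / δ ^ 2 * (H + κ * F + log 3))) + 4000 * α := by
        rw [hA0]; field_simp; ring
      rw [e10]
      linarith only [h3, e, h5, hκα, hα0, hQ0]
    -- the main case
    have h1' : 10 ^ 4 * α ≤ κ * FI (mu ρ0) σ N := by rw [← hF]; exact h1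
    have hx : 2 * δ * FI (mu ρ0) σ N ≤ κ * F := by
      rw [← hF]
      exact mul_le_mul_of_nonneg_right (by linarith only [hδ2, hδ0]) (by rw [hF]; exact hF0)
    have hscore : ∀ i, SB (sN N i) := fun i => hN.div (hN.sb.pd i)
    obtain ⟨⟨hFI, -⟩, -, hch⟩ := thCo n (mu ρ0) σ N hN
    have hch' := hch hN1
    have hPred0 : Pred (mu ρ0) σ N (sN N) (κ * F) F := by
      intro l hl _
      have h1 := ((hch' l hl).2 (sN N) hscore).2.1
      rw [hF]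
      rwa [← hFI] at h1
    have hB : StBoot n := boot_of n (thK n) (thR' n) (thT' n) (thCo n) (thRv n)
      (thG0' n) (thU' n) (thDn' n) (thP n) (thPathA' n)
    have hFpos : 0 ≤ F := by rw [hF]; exact hF0
    have hstep : ∀ X, 0 ≤ X → X ≤ F → Pred (mu ρ0) σ N (sN N) (κ * F) X →
        Pred (mu ρ0) σ N (sN N) (κ * F) (A0 + X / 2) := by
      intro X hX0 hXF hPX l hl hI
      have h1 := hB ρ0 R 3 hρ hprob hcs (by norm_num) hexp N δ κ σ α (κ * F) X D hδ0 hδ2 hDBS hσ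
        hN hN1 hα0 h1' hnear hx hX0 (by rw [← hF]; exact hXF) hPX l hl hI
      refine h1.trans (le_of_eq ?_)
      rw [hA0, hHdef]
    have hclose : Pred (mu ρ0) σ N (sN N) (κ * F) (2 * A0) := by
      have key := contraction_close
        (ι := {l : (Fin n → ℝ) → (Fin n → ℝ) → ℝ // Ch l ∧ Inf (mu ρ0) σ N l ≤ κ * F})
        (P := fun l => Co (mu ρ0) σ N (sN N) l.1) (A := A0) (N0 := F)
        (fun l => hPred0 l.1 l.2.1 l.2.2) hFpos
        (fun X hX0 hX l => by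
          rcases le_total X F with hXF | hXF
          · exact hstep X hX0 hXF (fun l' hl' hI' => hX ⟨l', hl', hI'⟩) l.1 l.2.1 l.2.2
          · have h1 := hstep F hFpos le_rfl hPred0 l.1 l.2.1 l.2.2
            linarith only [hXF, h1])
        hA0pos
      intro l hl hI
      exact key ⟨l, hl, hI⟩
    obtain ⟨ρ, M, hρI, hM, hM1, m1, m2, m3, m4, m5⟩ := pathB n hρ hprob hcs hδ0 hδ2 hDBS hσ hN hN1
      hα0 h1' hnear hx (by positivity : 0 ≤ 2 * A0) (by rw [← hF]; exact h2) hclose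
    have hρ0 : 0 < ρ := by linarith only [hρI.1, hδ0]
    have m3' : κ * FI (mu ρ0) ρ M ≤ κ * F := by
      rw [hF]; exact mul_le_mul_of_nonneg_left m3 hκ0.le
    have m6 := ga_lower n (mu ρ0) hρ0.le hκ0 hM hM1 m1 m3' m5
      (hDBS ρ ⟨hρI.1, by linarith only [hρI.2]⟩)
    refine key_num hκ hδ1 hδ2 hb0 hb hFpos hQ0 hα0 hA0 (by rw [hF]; exact m2)
      (hBI ρ hρI M hM) m4 ?_
    exact m6
  rw [← hF]
  have h5 : 0 ≤ (10 ^ 4 + κ) * α := by positivity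
  linarith only [claim, hH, h5, hlog3, hD0, hκF0]

end Vale.Agent.P245.H638
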