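import Vale.Agent.P245.H638.Key
import Vale.Agent.P245.N.Scale

/-! # P245: improved Lichnerowicz estimate for the log-Sobolev constant, compact support -/

open MeasureTheory Real Set Filter Topology
open scoped ENNReal ContDiff

namespace Vale.Agent.P245.H638

open LS E1

variable {n : ℕ} {ρ : (Fin n → ℝ) → ℝ} {R t : ℝ}

theorem b_num {t k : ℝ} (ht : 0 < t) (hk : 10 ^ 15 ≤ k) (h : 25 * 10 ^ 15 ≤ t * k ^ 2) :
    10 ^ 16 ≤ t / (1 + t * (3 * (2 * k / 4000))) * k ^ 2 := by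
  have hk0 : 0 < k := lt_of_lt_of_le (by norm_num) hk
  have hp : 0 < 1 + t * (3 * (2 * k / 4000)) := by positivity
  rw [div_mul_eq_mul_div, le_div_iff₀ hp]
  have h1 : 10 ^ 15 * (t * k) ≤ k * (t * k) := mul_le_mul_of_nonneg_right hk (by positivity)
  have e : k * (t * k) = t * k ^ 2 := by ring
  rw [e] at h1
  linarith only [h1, h]

/-- one scale -/
theorem scale_step (ht : 0 < t) (hρ : LCd ρ) (hprob : IsProbabilityMeasure (mu (gwt t ρ)))
    (hR : CSupp (mu (gwt t ρ)) R) (hexp : ExpM (mu (gwt t ρ)) 3) {κ' k1 B D1 : ℝ}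
    (hk1 : 0 ≤ k1) (hbase : DB (mu (gwt t ρ)) k1 B) (hk : 4 * k1 ≤ κ')
    (h1 : 2 * 10 ^ 15 ≤ κ') (h2 : 10 ^ 17 ≤ t * κ' ^ 2) (hD1 : log 2 / 4 ≤ D1)
    (h : DB (mu (gwt t ρ)) κ' D1) :
    DB (mu (gwt t ρ)) (51 / 100 * κ') (101 / 100 * D1) := by
  have hρt := gwt_LCd ht.le hρ
  have hLv := thLv n
  have hκ' : 0 < κ' := lt_of_lt_of_le (by norm_num) h1
  have hl2 : 0 < log 2 := Real.log_pos (by norm_num)
  have hD10 : 0 < D1 := by linarith only [hD1, hl2]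
  obtain ⟨k, hkd⟩ : ∃ k, k = 1001 / 2000 * κ' := ⟨_, rfl⟩
  obtain ⟨δ, hδ⟩ : ∃ δ, δ = 2 * k / 4000 := ⟨_, rfl⟩
  have hk0 : 0 < k := by rw [hkd]; positivity
  have hδ0 : 0 < δ := by rw [hδ]; positivity
  have hk15 : 10 ^ 15 ≤ k := by rw [hkd]; linarith only [h1]
  have hne : Nonempty (GF (mu (gwt t ρ)) δ) :=
    ⟨⟨(2 * δ, fun _ => 1), ⟨le_rfl, by linarith only [hδ0]⟩, g_Pos_one, g_EY_one _ _⟩⟩
  have hlev : ∀ f : GF (mu (gwt t ρ)) δ, 0 < f.1.1 ∧ f.1.1 / 2 ≤ 3 / 2 * δ := by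
    intro f
    have a := f.2.1.1
    have b := f.2.1.2
    constructor
    · linarith only [hδ0, a]
    · linarith only [b]
  have hup : ∀ κ D, 0 ≤ κ → DB (mu (gwt t ρ)) κ D → ∀ f : GF (mu (gwt t ρ)) δ,
      HE (mu (gwt t ρ)) f.1.1 f.1.2 ≤ (κ + 3 / 2 * δ) * FI (mu (gwt t ρ)) f.1.1 f.1.2 + D := by
    intro κ D hκ hDB f
    have a := (hLv (gwt t ρ) R hρt hprob hR f.1.1 κ D (hlev f).1 hκ).1 hDB f.1.2 f.2.2.1 f.2.2.2
    have b := mul_le_mul_of_nonneg_right (hlev f).2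
      (g_FI_nonneg (mu (gwt t ρ)) f.1.1 f.2.2.1)
    rw [add_mul] at a ⊢
    linarith only [b, a]
  have hb1 := hup k1 B hk1 hbase
  have hb3 := hup κ' D1 hκ'.le h
  have hk1' : k1 + 3 / 2 * δ ≤ k := by rw [hδ, hkd]; linarith only [hκ', hk]
  obtain ⟨D, hDdef⟩ : ∃ D, D = iterD (fun f : GF (mu (gwt t ρ)) δ => HE (mu (gwt t ρ)) f.1.1 f.1.2)
        (fun f => FI (mu (gwt t ρ)) f.1.1 f.1.2) k := ⟨_, rfl⟩
  have hDBS : DBS (mu (gwt t ρ)) (2 * δ) δ k D := by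
    intro r hr N hN hE
    have hr' : r ∈ Icc (2 * δ) (3 * δ) := ⟨hr.1, by linarith only [hr.2]⟩
    have := g_le (H := fun f : GF (mu (gwt t ρ)) δ => HE (mu (gwt t ρ)) f.1.1 f.1.2)
      (I := fun f => FI (mu (gwt t ρ)) f.1.1 f.1.2) (fun f => g_FI_nonneg _ _ f.2.2.1) hb1 hk1'
      ⟨(r, N), hr', hN, hE⟩
    rw [← hDdef] at this
    simp only at this
    linarith only [this]
  have hBI : ∀ σ ∈ Icc (2 * δ) (3 * δ), ∀ M : (Fin n → ℝ) → ℝ, Pos M →
      t / (1 + t * (3 * (2 * k / 4000))) * FI (mu (gwt t ρ)) σ M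
        ≤ BI (mu (gwt t ρ)) σ M (sN M) (sN M) := by
    intro σ hσ M hM
    have hσ0 : 0 < σ := by linarith only [hσ.1, hδ0]
    have hsb : ∀ i, SB (sN M i) := fun i => hM.div (hM.sb.pd i)
    have a := BI_slc ht.le hρ hR hσ0 hM hsb
    obtain ⟨⟨hFI, -⟩, -, -⟩ := thCo n (mu (gwt t ρ)) σ M hM
    rw [← hFI] at a
    refine le_trans ?_ a
    refine mul_le_mul_of_nonneg_right ?_ (g_FI_nonneg _ _ hM)
    rw [← hδ]
    apply div_le_div_of_nonneg_left ht.le (by positivity)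
    have := mul_le_mul_of_nonneg_left hσ.2 ht.le
    linarith only [this]
  have hDle : D ≤ 101 / 100 * D1 := by
    by_contra hcon
    push Not at hcon
    have hD0 : 0 ≤ D := by linarith only [hcon, hD10]
    obtain ⟨w, hw⟩ : ∃ w, w = 2 * (10 ^ 4 + k) + 1 := ⟨_, rfl⟩
    have hw0 : 0 < w := by rw [hw]; positivity
    obtain ⟨α, hα0, hα1, hα2⟩ : ∃ α : ℝ, 0 < α ∧ α ≤ 1 ∧ w * α ≤ D1 / 1000 := by
      refine ⟨min 1 (D1 / 1000 / w), lt_min one_pos (by positivity), min_le_left _ _, ?_⟩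
      have := mul_le_mul_of_nonneg_left (min_le_right 1 (D1 / 1000 / w)) hw0.le
      rwa [mul_div_cancel₀ _ hw0.ne'] at this
    obtain ⟨f, hf⟩ := exists_lt_of_lt_ciSup
      (f := fun f : GF (mu (gwt t ρ)) δ => HE (mu (gwt t ρ)) f.1.1 f.1.2
        - k * FI (mu (gwt t ρ)) f.1.1 f.1.2)
      (show D - α < ⨆ f : GF (mu (gwt t ρ)) δ, (HE (mu (gwt t ρ)) f.1.1 f.1.2
        - k * FI (mu (gwt t ρ)) f.1.1 f.1.2) from by
        have e : D = ⨆ f : GF (mu (gwt t ρ)) δ, (HE (mu (gwt t ρ)) f.1.1 f.1.2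
          - k * FI (mu (gwt t ρ)) f.1.1 f.1.2) := hDdef
        rw [← e]
        linarith only [hα0])
    have hkey := key n hρt hprob hR hexp hk15 (by rw [hδ]; linarith only [hk0])
      (by rw [hδ]; linarith only [hk0]) (by positivity)
      (b_num ht hk15 (by rw [hkd]; linarith only [h2])) hBI hDBS f.2.1 f.2.2.1 f.2.2.2
      hα0.le hα1 hD0 hf.le
    have hFI0 := g_FI_nonneg (mu (gwt t ρ)) f.1.1 f.2.2.1
    have h3 := hb3 f
    have h4 : (κ' + 3 / 2 * δ) * FI (mu (gwt t ρ)) f.1.1 f.1.2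
        ≤ 2 * k * FI (mu (gwt t ρ)) f.1.1 f.1.2 :=
      mul_le_mul_of_nonneg_right (by rw [hδ, hkd]; linarith only [hκ']) hFI0
    have h5 := g_log3
    rw [hw] at hα2
    linarith only [hkey, hf, h3, h4, h5, hD1, hcon, hα2, hD10]
  have a := hDBS (2 * δ) ⟨le_rfl, by linarith only [hδ0]⟩
  have b := (hLv (gwt t ρ) R hρt hprob hR (2 * δ) k D (by linarith only [hδ0]) hk0.le).2 a
  exact g_DB_mono b (by rw [hδ, hkd]; linarith only [hκ']) hDle

/-- from the constant `κ'` to `κ' / 2` -/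
theorem halve (ht : 0 < t) (hρ : LCd ρ) (hprob : IsProbabilityMeasure (mu (gwt t ρ)))
    (hR : CSupp (mu (gwt t ρ)) R) (hexp : ExpM (mu (gwt t ρ)) 3) {κ' k1 B : ℝ}
    (hk1 : 0 ≤ k1) (hbase : DB (mu (gwt t ρ)) k1 B) (hk : 4 * k1 ≤ κ' / 100)
    (h1 : 2 * 10 ^ 15 ≤ κ' / 100) (h2 : 10 ^ 17 ≤ t * (κ' / 100) ^ 2)
    (h : DB (mu (gwt t ρ)) κ' 0) : DB (mu (gwt t ρ)) (κ' / 2) 0 := by
  have hκ' : 0 < κ' := by linarith only [h1]
  have hl2 : 0 < log 2 := Real.log_pos (by norm_num)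
  have step : ∀ j : ℕ, j ≤ 7 →
      DB (mu (gwt t ρ)) ((51 / 100) ^ j * κ') ((101 / 100) ^ j * (log 2 / 4)) := by
    intro j
    induction j with
    | zero =>
      intro _
      rw [pow_zero, pow_zero, one_mul, one_mul]
      exact g_DB_mono h le_rfl (by positivity)
    | succ j ih =>
      intro hj
      have ih' := ih (by omega)
      have hp : (1 : ℝ) / 100 ≤ (51 / 100) ^ j := by
        have h6 : ((51 : ℝ) / 100) ^ 6 ≤ (51 / 100) ^ j :=
          pow_le_pow_of_le_one (by norm_num) (by norm_num) (by omega)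
        refine le_trans ?_ h6
        norm_num
      have hge : κ' / 100 ≤ (51 / 100) ^ j * κ' := by
        have := mul_le_mul_of_nonneg_right hp hκ'.le
        linarith only [this]
      have hq : (1 : ℝ) ≤ (101 / 100) ^ j := one_le_pow₀ (by norm_num)
      have := scale_step ht hρ hprob hR hexp hk1 hbase (by linarith only [hk, hge])
        (by linarith only [h1, hge])
        (h2.trans (mul_le_mul_of_nonneg_left
          (pow_le_pow_left₀ (by positivity) hge 2) ht.le))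
        (D1 := (101 / 100) ^ j * (log 2 / 4)) (by
          have := mul_le_mul_of_nonneg_right hq (show 0 ≤ log 2 / 4 by positivity)
          linarith only [this]) ih'
      refine g_DB_mono this (le_of_eq ?_) (le_of_eq ?_)
      · rw [pow_succ]; ring
      · rw [pow_succ]; ring
  have h7 := step 7 le_rfl
  have h8 : DB (mu (gwt t ρ)) (1 / 100 * κ') (log 2 / 2) := by
    refine g_DB_mono h7 (mul_le_mul_of_nonneg_right (by norm_num) hκ'.le) ?_
    have : ((101 : ℝ) / 100) ^ 7 ≤ 2 := by norm_num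
    have := mul_le_mul_of_nonneg_right this (show 0 ≤ log 2 / 4 by positivity)
    linarith only [this]
  have h9 := N.DB_tight hR (by positivity) h8
  exact g_DB_mono h9 (by linarith only [hκ']) le_rfl

/-- **Improved Lichnerowicz estimate**, compact support. -/
theorem db_slc (hn : 1 ≤ n) (ht : 0 < t) (hρ : LCd ρ)
    (hprob : IsProbabilityMeasure (mu (gwt t ρ)))
    (hR : CSupp (mu (gwt t ρ)) R) (hexp : ExpM (mu (gwt t ρ)) 3) :
    DB (mu (gwt t ρ)) (2 * 10 ^ 17 * (1 + 1 / √t)) 0 := by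
  have hρt := gwt_LCd ht.le hρ
  obtain ⟨K, hK⟩ : ∃ K, K = 2 * 10 ^ 17 * (1 + 1 / √t) := ⟨_, rfl⟩
  rw [← hK]
  have hst : 0 < √t := Real.sqrt_pos.2 ht
  have hs1 : 0 ≤ 1 / √t := by positivity
  have hK17 : 2 * 10 ^ 17 ≤ K := by rw [hK]; linarith only [hs1]
  have hK0 : 0 < K := by linarith only [hK17]
  have hKt : 10 ^ 17 ≤ t * (K / 100) ^ 2 := by
    have h1 : 2 * 10 ^ 17 * (1 / √t) ≤ K := by rw [hK]; linarith only []
    have h2 : 2 * 10 ^ 15 * (1 / √t) ≤ K / 100 := by linarith only [h1]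
    have h3 : (2 * 10 ^ 15 * (1 / √t)) ^ 2 ≤ (K / 100) ^ 2 :=
      pow_le_pow_left₀ (by positivity) h2 2
    have h4 := mul_le_mul_of_nonneg_left h3 ht.le
    have e : t * (2 * 10 ^ 15 * (1 / √t)) ^ 2 = 4 * 10 ^ 30 := by
      have e1 : √t ^ 2 = t := Real.sq_sqrt ht.le
      have e2 : t * (2 * 10 ^ 15 * (1 / √t)) ^ 2 = 4 * 10 ^ 30 * (t / √t ^ 2) := by
        field_simp; norm_num
      rw [e2, e1, div_self ht.ne', mul_one]
    rw [e] at h4
    linarith only [h4]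
  have hbase := thH1 n (gwt t ρ) R hn hρt hprob hR hexp
  have main : ∀ m : ℕ, ∀ κ : ℝ, DB (mu (gwt t ρ)) κ 0 → κ ≤ 2 ^ m * K → DB (mu (gwt t ρ)) K 0 := by
    intro m
    induction m with
    | zero =>
      intro κ hκ hle
      rw [pow_zero, one_mul] at hle
      exact g_DB_mono hκ hle le_rfl
    | succ m ih =>
      intro κ hκ hle
      rcases le_total κ K with hc | hc
      · exact g_DB_mono hκ hc le_rfl
      · have h5 : K / 100 ≤ κ / 100 := by linarith only [hc]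
        have h6 := halve ht hρ hprob hR hexp (κ' := κ) (by norm_num) hbase
          (by linarith only [hK17, hc]) (by linarith only [hK17, hc])
          (hKt.trans (mul_le_mul_of_nonneg_left (pow_le_pow_left₀ (by positivity) h5 2) ht.le)) hκ
        refine ih _ h6 ?_
        rw [pow_succ] at hle
        linarith only [hle]
  obtain ⟨κ, hκ0, hκ⟩ := thH3 n (gwt t ρ) R hn hρt hprob hR hexp
  obtain ⟨m, hm⟩ := pow_unbounded_of_one_lt (κ / K) (show (1 : ℝ) < 2 by norm_num)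
  exact main m κ hκ (by rw [div_lt_iff₀ hK0] at hm; exact hm.le)

/-- the log-Sobolev form -/
theorem dl_slc (hn : 1 ≤ n) (ht : 0 < t) (hρ : LCd ρ)
    (hprob : IsProbabilityMeasure (mu (gwt t ρ)))
    (hR : CSupp (mu (gwt t ρ)) R) (hexp : ExpM (mu (gwt t ρ)) 3) :
    DL (mu (gwt t ρ)) (8 * 10 ^ 17 * (1 + 1 / √t)) 0 := by
  have h := (thH2 n (mu (gwt t ρ)) R (2 * 10 ^ 17 * (1 + 1 / √t)) 0 hR (by positivity) le_rfl).1
    (db_slc hn ht hρ hprob hR hexp)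
  have e : 4 * (2 * 10 ^ 17 * (1 + 1 / √t)) = 8 * 10 ^ 17 * (1 + 1 / √t) := by ring
  rwa [e] at h

end Vale.Agent.P245.H638
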