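import Vale.Agent.P245.Bdl.B2

/-! # P245: strongly log-concave laws: lower bound of the Hessian of the noisy potentials -/

open MeasureTheory Real Set Filter Topology
open scoped ENNReal ContDiff

namespace Vale.Agent.P245.H638

open LS LS.Down E1

variable {n : ℕ} {ρ : (Fin n → ℝ) → ℝ} {R : ℝ}

/-- the product with a strongly log-concave weight is log-concave -/
theorem gwt_LCd {t : ℝ} (ht : 0 ≤ t) (hρ : LCd ρ) : LCd (gwt t ρ) where
  meas := measurable_gwt hρ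
  nonneg := gwt_nonneg hρ
  lc := by
    intro x y s hs0 hs1
    refine le_trans ?_ (gwt_pl (κ := t) hρ x y hs0 hs1)
    have h1 : 0 ≤ gwt t ρ x ^ (1 - s) * gwt t ρ y ^ s :=
      mul_nonneg (rpow_nonneg (gwt_nonneg hρ x) _) (rpow_nonneg (gwt_nonneg hρ y) _)
    refine le_mul_of_one_le_right h1 (one_le_exp ?_)
    have h2 : 0 ≤ ∑ i, (x i - y i) ^ 2 := Finset.sum_nonneg fun i _ => sq_nonneg _
    have h3 : 0 ≤ s * (1 - s) := mul_nonneg hs0.le (by linarith only [hs1])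
    exact mul_nonneg h3 (mul_nonneg (by linarith only [ht]) h2)

theorem post_gwt (t : ℝ) (p : ℝ × (Fin n → ℝ)) :
    post (gwt t ρ) p = volume.withDensity fun x => ENNReal.ofReal
      (gwt (p.1 + t) (fun x => ρ x * (exp (∑ i, p.2 i * x i) * (Zo (mu (gwt t ρ)) p)⁻¹)) x) := by
  unfold post
  congr 1
  funext x
  congr 1
  unfold gwt
  have e : exp (-((p.1 + t) / 2 * ∑ i, x i ^ 2))
      = exp (-(t / 2 * ∑ i, x i ^ 2)) * exp (-(p.1 / 2 * ∑ i, x i ^ 2)) := by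
    rw [← exp_add]; congr 1; ring
  rw [e]
  ring

/-- Poincaré inequality for the posteriors of a strongly log-concave law -/
theorem poin_slc {t : ℝ} (ht : 0 ≤ t) (hρ : LCd ρ) [IsProbabilityMeasure (mu (gwt t ρ))]
    (h : CSupp (mu (gwt t ρ)) R) {p : ℝ × (Fin n → ℝ)} (hp : 0 < p.1) :
    Poin (post (gwt t ρ) p) (1 / (p.1 + t)) := by
  have hρt := gwt_LCd ht hρ
  intro f hf
  obtain ⟨g, hg, ⟨R', hR'⟩, hgf⟩ := exists_cutoff hf R
  have ip := isProb_post hρt h p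
  have hZ := Zo_pos h p
  have hg1 : ContDiff ℝ 1 g := hg.of_le (by norm_num)
  have key := UpA.poincare_sharp (κ := p.1 + t) (by linarith only [hp, ht])
    (hρ.mul_expL p.2 (inv_pos.2 hZ)) (ν := post (gwt t ρ) p) (post_gwt t p) hg hR'
  have hpi : ∀ i ∈ (Finset.univ : Finset (Fin n)),
      Integrable (fun x => pd g i x ^ 2) (post (gwt t ρ) p) := by
    intro i _
    obtain ⟨P, hP⟩ := bdd_of_const_outside (continuous_pd hg1 i) (pd_const_outside hR' i)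
    exact integrable_of_bdd _ ((continuous_pd hg1 i).measurable.pow_const 2) (K := P ^ 2) fun x => by
        rw [abs_of_nonneg (sq_nonneg _), ← sq_abs]; exact pow_le_pow_left₀ (abs_nonneg _) (hP x) 2
  rw [← integral_finsetSum _ hpi, integral_post hρt h, integral_post hρt h, integral_post hρt h,
    Vf_eq h (Adm.of_continuous h hg.continuous), sub_self, zero_pow two_ne_zero, add_zero] at key
  have hae : ∀ᵐ x ∂(mu (gwt t ρ)), g x = f x ∧ ∀ i, pd g i x = pd f i x := by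
    filter_upwards [h.supp] with x hx using hgf x hx
  rw [Vf_congr_ae (g' := f) (hae.mono fun x hx => hx.1),
    Mf_congr_ae (g' := fun x => ∑ i, pd f i x ^ 2) (hae.mono fun x hx => by simp only [hx.2]),
    Vf_eq_post hρt h, ← integral_post hρt h] at key
  exact key

theorem Vf_slc {t : ℝ} (ht : 0 ≤ t) (hρ : LCd ρ) [IsProbabilityMeasure (mu (gwt t ρ))]
    (h : CSupp (mu (gwt t ρ)) R) {p : ℝ × (Fin n → ℝ)} (hp : 0 < p.1) (u : Fin n → ℝ) :
    Vf (mu (gwt t ρ)) (fun x => ∑ i, u i * x i) p ≤ 1 / (p.1 + t) * ∑ i, u i ^ 2 := by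
  have := isProb_post (gwt_LCd ht hρ) h p
  exact Vf_lin_le (gwt_LCd ht hρ) h (covLe_of_poin (poin_slc ht hρ h hp)) u

/-- `D²V_σ ≥ t / (1 + t σ)` -/
theorem Pq_slc {t : ℝ} (ht : 0 ≤ t) (hρ : LCd ρ) [IsProbabilityMeasure (mu (gwt t ρ))]
    (h : CSupp (mu (gwt t ρ)) R) {σ : ℝ} (hσ : 0 < σ) (y u : Fin n → ℝ) :
    t / (1 + t * σ) * ∑ i, u i ^ 2 ≤ Pq (mu (gwt t ρ)) σ y u u := by
  rw [Pq_self h]
  have h1 := Vf_slc ht hρ h (p := (1 / σ, (1 / σ) • y)) (by positivity) u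
  have h1' : Vf (mu (gwt t ρ)) (fun x => ∑ i, u i * x i) (1 / σ, (1 / σ) • y)
      ≤ 1 / (1 / σ + t) * ∑ i, u i ^ 2 := h1
  have h2 := mul_le_mul_of_nonneg_left h1' (by positivity : 0 ≤ 1 / σ ^ 2)
  have hp : 0 < 1 + t * σ := by positivity
  have e2 : 1 / σ ^ 2 * (1 / (1 / σ + t) * ∑ i, u i ^ 2)
      = 1 / σ * ∑ i, u i ^ 2 - t / (1 + t * σ) * ∑ i, u i ^ 2 := by
    have e3 : 1 / σ ^ 2 * (1 / (1 / σ + t)) = 1 / σ - t / (1 + t * σ) := by
      field_simp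
      ring
    calc 1 / σ ^ 2 * (1 / (1 / σ + t) * ∑ i, u i ^ 2)
        = (1 / σ ^ 2 * (1 / (1 / σ + t))) * ∑ i, u i ^ 2 := by ring
      _ = _ := by rw [e3]; ring
  rw [e2] at h2
  linarith only [h2]

/-- the quadratic form of the Hessian controls the Fisher information -/
theorem BI_slc {t : ℝ} (ht : 0 ≤ t) (hρ : LCd ρ) [IsProbabilityMeasure (mu (gwt t ρ))]
    (h : CSupp (mu (gwt t ρ)) R) {r : ℝ} (hr : 0 < r) {N : (Fin n → ℝ) → ℝ} (hN : Pos N)
    {φ : Fin n → (Fin n → ℝ) → ℝ} (hφ : ∀ i, SB (φ i)) :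
    t / (1 + t * r) * IP (mu (gwt t ρ)) r N φ φ ≤ BI (mu (gwt t ρ)) r N φ φ := by
  rw [BI_eq h hr, IP]
  have hS : SB fun y => ∑ i, φ i y * φ i y := SB.sum _ fun i _ => (hφ i).mul (hφ i)
  have hQ := Pq_sb h hr hφ hφ
  have e : EY (mu (gwt t ρ)) r (fun y => N y * Pq (mu (gwt t ρ)) r y (fun i => φ i y)
        (fun i => φ i y))
      + (-(t / (1 + t * r))) * EY (mu (gwt t ρ)) r (fun y => N y * ∑ i, φ i y * φ i y)
      = EY (mu (gwt t ρ)) r (fun y => N y * Pq (mu (gwt t ρ)) r y (fun i => φ i y)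
        (fun i => φ i y) + (-(t / (1 + t * r))) * (N y * ∑ i, φ i y * φ i y)) := by
    rw [EY_add _ _ (hN.sb.mul hQ) ((hN.sb.mul hS).const_mul _), EY_const_mul]
  have h0 : 0 ≤ EY (mu (gwt t ρ)) r (fun y => N y * Pq (mu (gwt t ρ)) r y (fun i => φ i y)
        (fun i => φ i y) + (-(t / (1 + t * r))) * (N y * ∑ i, φ i y * φ i y)) := by
    refine EY_nonneg _ _ fun y => ?_
    have h1 := Pq_slc ht hρ h hr y (fun i => φ i y)
    have h2 := mul_le_mul_of_nonneg_left h1 (hN.pos y).le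
    have e2 : ∑ i, φ i y * φ i y = ∑ i, φ i y ^ 2 :=
      Finset.sum_congr rfl fun i _ => (sq _).symm
    rw [e2]
    linarith only [h2]
  rw [← e] at h0
  linarith only [h0]

end Vale.Agent.P245.H638
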